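import Mathlib

/-!
# Dickson's conjugacy theorem for division rings

Helper file for problem P199.  `D` is a division ring which is an algebra over a field `F`
such that every central element of `D` lies in the image of `F`.
-/

namespace Vale.Agent.Lib.P199

open Polynomial

variable {F D : Type*} [Field F] [DivisionRing D] [Algebra F D]

/-- Independence lemma: if `v` is linearly independent over the center `F` and
`∑ k ∈ s, v k * y * w k = 0` for every `y`, then every `w k` vanishes. -/
theorem sum_mul_mul_eq_zero_imp
    (hc : ∀ z : D, (∀ y : D, z * y = y * z) → z ∈ (algebraMap F D).range)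
    {ι : Type*} [DecidableEq ι] (v : ι → D) (hv : LinearIndependent F v) :
    ∀ (s : Finset ι) (w : ι → D), (∀ y : D, ∑ k ∈ s, v k * y * w k = 0) →
      ∀ k ∈ s, w k = 0 := by
  intro s
  induction s using Finset.strongInduction with
  | H s ih =>
    intro w hw
    by_contra hne
    push Not at hne
    obtain ⟨k0, hk0, hwk0⟩ := hne
    -- normalise so that the coefficient at k0 is one
    set w' : ι → D := fun k => w k * (w k0)⁻¹ with hw'
    have hw'0 : w' k0 = 1 := by simp [hw', hwk0]
    have hsum' : ∀ y : D, ∑ k ∈ s, v k * y * w' k = 0 := by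
      intro y
      have := congrArg (fun t => t * (w k0)⁻¹) (hw y)
      simp only [Finset.sum_mul, zero_mul] at this
      rw [← this]
      refine Finset.sum_congr rfl fun k _ => ?_
      simp [hw', mul_assoc]
    -- every w' k is central
    have hcentral : ∀ k ∈ s, ∀ z : D, w' k * z = z * w' k := by
      intro k hk z
      have hd : ∀ y : D, ∑ k ∈ s.erase k0, v k * y * (w' k * z - z * w' k) = 0 := by
        intro y
        have h1 : ∑ k ∈ s, v k * y * (w' k * z - z * w' k) = 0 := by
          have e1 : ∑ k ∈ s, v k * y * (w' k * z - z * w' k)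
              = (∑ k ∈ s, v k * y * w' k) * z - ∑ k ∈ s, v k * (y * z) * w' k := by
            rw [Finset.sum_mul, ← Finset.sum_sub_distrib]
            refine Finset.sum_congr rfl fun k _ => ?_
            simp only [mul_sub, mul_assoc]
          rw [e1, hsum' y, hsum' (y * z)]
          simp
        rw [← Finset.add_sum_erase s _ hk0] at h1
        simpa [hw'0] using h1
      have := ih (s.erase k0) (Finset.erase_ssubset hk0) (fun k => w' k * z - z * w' k) hd
      by_cases hkk : k = k0
      · subst hkk
        simp [hw'0]
      · have := this k (Finset.mem_erase.mpr ⟨hkk, hk⟩)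
        exact sub_eq_zero.mp this
    -- so they come from F
    have hF : ∀ k ∈ s, ∃ c : F, algebraMap F D c = w' k := by
      intro k hk
      have := hc (w' k) (hcentral k hk)
      simpa using this
    classical
    choose! c hcw using hF
    have hlin : ∑ k ∈ s, c k • v k = 0 := by
      have := hsum' 1
      rw [← this]
      refine Finset.sum_congr rfl fun k hk => ?_
      rw [← hcw k hk, Algebra.smul_def, mul_one, Algebra.commutes]
    have hck0 : c k0 = 0 := (linearIndependent_iff'.mp hv) s c hlin k0 hk0
    have : (1 : D) = 0 := by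
      rw [← hw'0, ← hcw k0 hk0, hck0, map_zero]
    exact one_ne_zero this


/-- Coefficients of iterated `divX`. -/
theorem coeff_iterate_divX (f : F[X]) (j m : ℕ) :
    ((divX)^[j] f).coeff m = f.coeff (m + j) := by
  induction j generalizing m with
  | zero => simp
  | succ j ih =>
    rw [Function.iterate_succ_apply', coeff_divX, ih]
    congr 1
    omega

/-- For a monic polynomial of degree `n`, the `n`-th iterate of `divX` is `1`. -/
theorem iterate_divX_natDegree {f : F[X]} (hf : f.Monic) :
    ((divX)^[f.natDegree] f) = 1 := by
  ext m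
  rw [coeff_iterate_divX, coeff_one]
  by_cases hm : m = 0
  · subst hm
    simp [hf.coeff_natDegree]
  · rw [if_neg hm]
    exact coeff_eq_zero_of_natDegree_lt (by omega)

/-- **Dickson's theorem.** In a division ring `D` with center `F`, two elements with the same
minimal polynomial over `F` are conjugate: there is `x ≠ 0` with `b * x = x * a`. -/
theorem exists_conj_of_minpoly_eq
    (hc : ∀ z : D, (∀ y : D, z * y = y * z) → z ∈ (algebraMap F D).range)
    (a b : D) (ha : IsIntegral F a) (hab : minpoly F b = minpoly F a) :
    ∃ x : D, x ≠ 0 ∧ b * x = x * a := by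
  classical
  set f := minpoly F a with hf
  have hmonic : f.Monic := minpoly.monic ha
  set n := f.natDegree with hn
  have hnpos : 0 < n := minpoly.natDegree_pos ha
  set Q : ℕ → D := fun j => aeval a ((divX)^[j] f) with hQ
  have hQ0 : Q 0 = 0 := by simp [hQ, hf, minpoly.aeval]
  have hQn : Q n = 1 := by
    simp only [hQ, hn]
    rw [iterate_divX_natDegree hmonic, map_one]
  have hcomm : ∀ j, Q j * a = a * Q j := by
    intro j
    simp only [hQ]
    have h1 : aeval a ((divX)^[j] f) * a = aeval a ((divX)^[j] f * X) := by
      rw [map_mul, aeval_X]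
    have h2 : a * aeval a ((divX)^[j] f) = aeval a (X * (divX)^[j] f) := by
      rw [map_mul, aeval_X]
    rw [h1, h2, mul_comm]
  have hQrec : ∀ j, Q j = a * Q (j + 1) + algebraMap F D (f.coeff j) := by
    intro j
    rw [← hcomm]
    simp only [hQ]
    have h := divX_mul_X_add ((divX)^[j] f)
    have h2 := congrArg (aeval a) h
    rw [map_add, map_mul, aeval_X, aeval_C, coeff_iterate_divX, zero_add] at h2
    rw [Function.iterate_succ_apply', h2]
  have hfb : aeval b f = 0 := by
    rw [← hab]
    exact minpoly.aeval F b
  -- the candidate conjugating elements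
  have key : ∀ y : D, b * (∑ j ∈ Finset.range n, b ^ j * y * Q (j + 1))
      = (∑ j ∈ Finset.range n, b ^ j * y * Q (j + 1)) * a := by
    intro y
    rw [Finset.mul_sum, Finset.sum_mul]
    have e1 : ∀ j ∈ Finset.range n, b ^ j * y * Q (j + 1) * a
        = b ^ j * y * Q j - f.coeff j • (b ^ j * y) := by
      intro j _
      rw [mul_assoc (b ^ j * y), hcomm, hQrec j]
      rw [mul_add, add_sub_assoc, Algebra.smul_def, Algebra.commutes, sub_self, add_zero]
    rw [Finset.sum_congr rfl e1, Finset.sum_sub_distrib]
    have e2 : ∑ j ∈ Finset.range n, b * (b ^ j * y * Q (j + 1))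
        = ∑ j ∈ Finset.range n, b ^ (j + 1) * y * Q (j + 1) := by
      refine Finset.sum_congr rfl fun j _ => ?_
      rw [pow_succ']
      simp only [mul_assoc]
    rw [e2]
    have e3 : ∑ j ∈ Finset.range n, b ^ (j + 1) * y * Q (j + 1)
        - ∑ j ∈ Finset.range n, b ^ j * y * Q j = b ^ n * y := by
      rw [← Finset.sum_sub_distrib, Finset.sum_range_sub (fun j => b ^ j * y * Q j) n]
      simp [hQ0, hQn]
    have e4 : b ^ n * y + ∑ j ∈ Finset.range n, f.coeff j • (b ^ j * y) = 0 := by
      have h := hfb
      rw [aeval_eq_sum_range, Finset.sum_range_succ, ← hn, hmonic.coeff_natDegree, one_smul] at h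
      have h' := congrArg (fun t => t * y) h
      simp only [add_mul, zero_mul, Finset.sum_mul, smul_mul_assoc] at h'
      rw [add_comm]
      exact h'
    have e5 : ∑ j ∈ Finset.range n, b ^ (j + 1) * y * Q (j + 1)
        = ∑ j ∈ Finset.range n, b ^ j * y * Q j + b ^ n * y := by
      rw [← e3]; abel
    rw [e5]
    have e6 : ∑ j ∈ Finset.range n, f.coeff j • (b ^ j * y) = - (b ^ n * y) := by
      rw [eq_neg_iff_add_eq_zero, add_comm]; exact e4
    rw [e6]; abel
  -- some candidate is nonzero
  have hex : ∃ y : D, ∑ j ∈ Finset.range n, b ^ j * y * Q (j + 1) ≠ 0 := by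
    by_contra hall
    push Not at hall
    have hli : LinearIndependent F fun i : Fin n => b ^ (i : ℕ) := by
      have := linearIndependent_pow (K := F) b
      rw [hab] at this
      exact this
    have h0 := sum_mul_mul_eq_zero_imp hc (fun i : Fin n => b ^ (i : ℕ)) hli Finset.univ
      (fun i : Fin n => Q ((i : ℕ) + 1)) (by
        intro y
        have := hall y
        rw [Finset.sum_range] at this
        exact this)
    have h1 := h0 ⟨n - 1, by omega⟩ (Finset.mem_univ _)
    have h2 : n - 1 + 1 = n := by omega
    simp only [h2] at h1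
    rw [hQn] at h1
    exact one_ne_zero h1
  obtain ⟨y, hy⟩ := hex
  exact ⟨_, hy, key y⟩

end Vale.Agent.Lib.P199
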