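import Mathlib
import Vale.Agent.Lib.P199.Dickson

/-!
# Finite-dimensional noncommutative subalgebras from non-rigid elements

Helper file for problem P199.
-/

namespace Vale.Agent.Lib.P199

open Polynomial

variable {F D : Type*} [Field F] [DivisionRing D] [Algebra F D]

/-- If `x * a = b * x` with `b` in the subalgebra generated by `a`, then `x` can be moved to the
right of any element of that subalgebra. -/
theorem exists_swap_of_mem_adjoin {a b x : D} (hb : b ∈ Algebra.adjoin F {a})
    (hx : x * a = b * x) {t : D} (ht : t ∈ Algebra.adjoin F {a}) :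
    ∃ t' ∈ Algebra.adjoin F {a}, x * t = t' * x := by
  induction ht using Algebra.adjoin_induction with
  | mem y hy =>
    rw [Set.mem_singleton_iff] at hy
    subst hy
    exact ⟨b, hb, hx⟩
  | algebraMap r =>
    exact ⟨algebraMap F D r, Subalgebra.algebraMap_mem _ r, (Algebra.commutes r x).symm⟩
  | add y z _ _ hy hz =>
    obtain ⟨y', hy', ey⟩ := hy
    obtain ⟨z', hz', ez⟩ := hz
    exact ⟨y' + z', add_mem hy' hz', by rw [mul_add, add_mul, ey, ez]⟩
  | mul y z _ _ hy hz =>
    obtain ⟨y', hy', ey⟩ := hy
    obtain ⟨z', hz', ez⟩ := hz
    exact ⟨y' * z', mul_mem hy' hz', by rw [← mul_assoc, ey, mul_assoc, ez, mul_assoc]⟩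

/-- If `a` and `x` are integral over `F` and `x * a = b * x` for some `b` in the subalgebra
generated by `a`, then the subalgebra generated by `a` and `x` is finite-dimensional. -/
theorem finite_adjoin_pair {a b x : D} (ha : IsIntegral F a) (hxi : IsIntegral F x)
    (hb : b ∈ Algebra.adjoin F {a}) (hx : x * a = b * x) :
    FiniteDimensional F (Algebra.adjoin F {a, x}) := by
  set A0 : Subalgebra F D := Algebra.adjoin F {a} with hA0
  set X0 : Subalgebra F D := Algebra.adjoin F {x} with hX0
  set M : Submodule F D := A0.toSubmodule * X0.toSubmodule with hM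
  have hMfg : M.FG := Submodule.FG.mul ha.fg_adjoin_singleton hxi.fg_adjoin_singleton
  have hone : (1 : D) ∈ M := by
    have : (1 : D) * 1 ∈ M := Submodule.mul_mem_mul (one_mem A0) (one_mem X0)
    simpa using this
  -- the elements that stabilise M under left multiplication form a subalgebra
  let S : Subalgebra F D :=
    { carrier := {d | ∀ m ∈ M, d * m ∈ M}
      mul_mem' := by
        intro d e hd he m hm
        rw [mul_assoc]
        exact hd _ (he _ hm)
      one_mem' := by
        intro m hm
        simpa using hm
      add_mem' := by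
        intro d e hd he m hm
        rw [add_mul]
        exact M.add_mem (hd _ hm) (he _ hm)
      zero_mem' := by
        intro m _
        simp
      algebraMap_mem' := by
        intro r m hm
        rw [← Algebra.smul_def]
        exact M.smul_mem r hm }
  have haS : a ∈ S := by
    intro m hm
    refine Submodule.mul_induction_on hm ?_ ?_
    · intro t ht u hu
      rw [← mul_assoc]
      have ht2 : t ∈ A0 := ht
      have hat : a * t ∈ A0 := A0.mul_mem (Algebra.subset_adjoin rfl) ht2
      exact Submodule.mul_mem_mul hat hu
    · intro y z hy hz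
      rw [mul_add]
      exact M.add_mem hy hz
  have hxS : x ∈ S := by
    intro m hm
    refine Submodule.mul_induction_on hm ?_ ?_
    · intro t ht u hu
      have ht2 : t ∈ A0 := ht
      have hu2 : u ∈ X0 := hu
      obtain ⟨t', ht', e⟩ := exists_swap_of_mem_adjoin hb hx ht2
      rw [← mul_assoc, e, mul_assoc]
      have hxu : x * u ∈ X0 := X0.mul_mem (Algebra.subset_adjoin rfl) hu2
      exact Submodule.mul_mem_mul ht' hxu
    · intro y z hy hz
      rw [mul_add]
      exact M.add_mem hy hz
  have hle : Algebra.adjoin F {a, x} ≤ S := by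
    apply Algebra.adjoin_le
    intro y hy
    rcases hy with rfl | hy
    · exact haS
    · rw [Set.mem_singleton_iff] at hy
      subst hy
      exact hxS
  have hsub : (Algebra.adjoin F {a, x}).toSubmodule ≤ M := by
    intro d hd
    have := hle hd _ hone
    simpa using this
  have : FiniteDimensional F M := Module.Finite.iff_fg.mpr hMfg
  exact Submodule.finiteDimensional_of_le hsub

/-- **Core lemma.** Let `D` be a division ring algebraic over its center `F`, let `a ∈ D`, and
suppose that `b = p(a)` is another root of the minimal polynomial of `a` (with `b ≠ a`).  Then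
there is `x ∈ D` not commuting with `a` such that `a` and `x` generate a finite-dimensional
subalgebra. -/
theorem exists_noncomm_finite [Algebra.IsAlgebraic F D]
    (hc : ∀ z : D, (∀ y : D, z * y = y * z) → z ∈ (algebraMap F D).range)
    (a : D) (p : F[X]) (h1 : minpoly F (aeval a p) = minpoly F a) (h2 : aeval a p ≠ a) :
    ∃ x : D, x * a ≠ a * x ∧ FiniteDimensional F (Algebra.adjoin F {a, x}) := by
  have ha : IsIntegral F a := (Algebra.IsAlgebraic.isAlgebraic a).isIntegral
  obtain ⟨x, hx0, hx⟩ := exists_conj_of_minpoly_eq hc a (aeval a p) ha h1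
  refine ⟨x, ?_, ?_⟩
  · intro h
    rw [h] at hx
    have : (aeval a p - a) * x = 0 := by rw [sub_mul, hx, sub_self]
    rcases mul_eq_zero.mp this with h' | h'
    · exact h2 (sub_eq_zero.mp h')
    · exact hx0 h'
  · exact finite_adjoin_pair ha (Algebra.IsAlgebraic.isAlgebraic x).isIntegral
      (aeval_mem_adjoin_singleton F a) hx.symm

end Vale.Agent.Lib.P199
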