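import Mathlib
import Vale.Agent.Lib.P199.Core

/-!
# Non-rigid elements of algebraic division rings

Helper file for problem P199 (second hand-in).
-/

namespace Vale.Agent.Lib.P199

open Polynomial

universe u

/-- The center hypothesis in elementwise form. -/
theorem mem_range_of_central {F D : Type*} [Field F] [DivisionRing D] [Algebra F D]
    (hcenter : Subalgebra.center F D = ⊥) (z : D) (hz : ∀ y : D, z * y = y * z) :
    z ∈ (algebraMap F D).range := by
  have hz' : z ∈ Subalgebra.center F D :=
    Subalgebra.mem_center_iff.mpr fun y => (hz y).symm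
  rw [hcenter, Algebra.mem_bot] at hz'
  exact hz'

/-- Let `D` be a division ring algebraic over its center `F`, let `d ∈ D`, and suppose that
`p(d)` is a root of the minimal polynomial of `d` different from `d`.  Then there is a nonzero
`u ∈ D` with `u * d = p(d) * u`; it does not commute with `d`, and `d` and `u` generate a
finite-dimensional subalgebra. -/
theorem exists_conj_finite {F D : Type*} [Field F] [DivisionRing D] [Algebra F D]
    [Algebra.IsAlgebraic F D] (hcenter : Subalgebra.center F D = ⊥)
    (d : D) (p : F[X]) (h1 : minpoly F (aeval d p) = minpoly F d) (h2 : aeval d p ≠ d) :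
    ∃ u : D, u ≠ 0 ∧ u * d = aeval d p * u ∧ u * d ≠ d * u ∧
      FiniteDimensional F (Algebra.adjoin F {d, u}) := by
  have ha : IsIntegral F d := (Algebra.IsAlgebraic.isAlgebraic d).isIntegral
  obtain ⟨x, hx0, hx⟩ := exists_conj_of_minpoly_eq (mem_range_of_central hcenter) d (aeval d p)
    ha h1
  refine ⟨x, hx0, hx.symm, ?_, ?_⟩
  · intro h
    rw [h] at hx
    have : (aeval d p - d) * x = 0 := by rw [sub_mul, hx, sub_self]
    rcases mul_eq_zero.mp this with h' | h'
    · exact h2 (sub_eq_zero.mp h')
    · exact hx0 h'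
  · exact finite_adjoin_pair ha (Algebra.IsAlgebraic.isAlgebraic x).isIntegral
      (aeval_mem_adjoin_singleton F d) hx.symm

/-- If every proper finite extension of `F` has a nontrivial `F`-automorphism, then for every
integral element `d` of an `F`-algebra `D` that is not in `F` there is a polynomial `p` such that
`p(d)` is a root of the minimal polynomial of `d` different from `d`. -/
theorem exists_poly_of_nonrigid {F : Type u} [Field F]
    (H2 : ∀ (K : Type u) [Field K] [Algebra F K] [FiniteDimensional F K],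
      ¬ Function.Surjective (algebraMap F K) → ∃ σ : K ≃ₐ[F] K, σ ≠ AlgEquiv.refl)
    {D : Type*} [DivisionRing D] [Algebra F D] (d : D) (hint : IsIntegral F d)
    (hd : d ∉ (algebraMap F D).range) :
    ∃ p : F[X], minpoly F (aeval d p) = minpoly F d ∧ aeval d p ≠ d := by
  set f := minpoly F d with hf
  have hirr : Irreducible f := minpoly.irreducible hint
  have : Fact (Irreducible f) := ⟨hirr⟩
  have hmonic : f.Monic := minpoly.monic hint
  have hdeg : 2 ≤ f.natDegree := (minpoly.two_le_natDegree_iff hint).mpr hd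
  have : FiniteDimensional F (AdjoinRoot f) := hmonic.finite_adjoinRoot
  have hns : ¬ Function.Surjective (algebraMap F (AdjoinRoot f)) := by
    intro hs
    obtain ⟨c, hc⟩ := hs (AdjoinRoot.root f)
    have h0 : AdjoinRoot.mk f (X - C c) = 0 := by
      rw [map_sub, AdjoinRoot.mk_X, AdjoinRoot.mk_C, ← hc, AdjoinRoot.algebraMap_eq, sub_self]
    have hdvd := AdjoinRoot.mk_eq_zero.mp h0
    have hle := natDegree_le_of_dvd hdvd (X_sub_C_ne_zero c)
    rw [natDegree_X_sub_C] at hle
    omega
  obtain ⟨σ, hσ⟩ := H2 (AdjoinRoot f) hns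
  have hroot : σ (AdjoinRoot.root f) ≠ AdjoinRoot.root f := by
    intro h
    apply hσ
    have h3 : (σ : AdjoinRoot f →ₐ[F] AdjoinRoot f) = AlgHom.id F (AdjoinRoot f) :=
      AdjoinRoot.algHom_ext (by simpa using h)
    ext z
    exact DFunLike.congr_fun h3 z
  obtain ⟨p, hp⟩ := AdjoinRoot.mk_surjective (σ (AdjoinRoot.root f))
  have h1 : f ∣ f.comp p := by
    rw [← AdjoinRoot.mk_eq_zero, ← AdjoinRoot.aeval_eq, aeval_comp, AdjoinRoot.aeval_eq, hp]
    have h4 : aeval ((σ : AdjoinRoot f →ₐ[F] AdjoinRoot f) (AdjoinRoot.root f)) f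
        = (σ : AdjoinRoot f →ₐ[F] AdjoinRoot f) (aeval (AdjoinRoot.root f) f) :=
      aeval_algHom_apply _ _ _
    have h5 : aeval (AdjoinRoot.root f) f = 0 := by
      rw [AdjoinRoot.aeval_eq, AdjoinRoot.mk_self]
    rw [h5, map_zero] at h4
    exact h4
  have h2 : ¬ f ∣ p - X := by
    rw [← AdjoinRoot.mk_eq_mk, hp, AdjoinRoot.mk_X]
    exact hroot
  have hb1 : aeval d (f.comp p) = 0 := by
    obtain ⟨q, hq⟩ := h1
    rw [hq, map_mul, hf, minpoly.aeval, zero_mul]
  have hb2 : aeval d p ≠ d := by
    intro h
    apply h2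
    apply minpoly.dvd
    rw [map_sub, aeval_X, h, sub_self]
  have hmin : minpoly F (aeval d p) = minpoly F d := by
    symm
    apply minpoly.eq_of_irreducible_of_monic hirr _ hmonic
    rw [← aeval_comp]
    exact hb1
  exact ⟨p, hmin, hb2⟩

end Vale.Agent.Lib.P199
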