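import Mathlib
import Vale.Agent.Lib.P199.Nonrigid

/-!
# Separable non-rigid elements of algebraic division rings

Helper file for problem P199 (third hand-in).
-/

namespace Vale.Agent.Lib.P199

open Polynomial

universe u

/-- The field obtained by adjoining a root of a separable irreducible polynomial is separable. -/
theorem isSeparable_adjoinRoot {F : Type*} [Field F] {f : F[X]} [Fact (Irreducible f)]
    (hf : f.Separable) : Algebra.IsSeparable F (AdjoinRoot f) := by
  have hf0 : f ≠ 0 := (Fact.out : Irreducible f).ne_zero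
  have hint : IsIntegral F (AdjoinRoot.root f) := AdjoinRoot.isIntegral_root hf0
  have hsep : IsSeparable F (AdjoinRoot.root f) := by
    have hdvd : minpoly F (AdjoinRoot.root f) ∣ f := by
      apply minpoly.dvd
      rw [AdjoinRoot.aeval_eq, AdjoinRoot.mk_self]
    exact hf.of_dvd hdvd
  have h1 : Algebra.IsSeparable F (IntermediateField.adjoin F {AdjoinRoot.root f}) :=
    (IntermediateField.isSeparable_adjoin_simple_iff_isSeparable F (AdjoinRoot f)).mpr hsep
  have htop : IntermediateField.adjoin F {AdjoinRoot.root f} = ⊤ := by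
    apply IntermediateField.toSubalgebra_injective
    rw [IntermediateField.adjoin_simple_toSubalgebra_of_isAlgebraic hint.isAlgebraic,
      AdjoinRoot.adjoinRoot_eq_top, IntermediateField.top_toSubalgebra]
  exact AlgEquiv.Algebra.isSeparable
    ((IntermediateField.equivOfEq htop).trans IntermediateField.topEquiv)

/-- If every proper finite separable extension of `F` has a nontrivial `F`-automorphism, then
for every separable element `d` of an `F`-algebra `D` that is not in `F` there is a polynomial
`p` such that `p(d)` is a root of the minimal polynomial of `d` different from `d`. -/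
theorem exists_poly_of_sep_nonrigid {F : Type u} [Field F]
    (H2 : ∀ (K : Type u) [Field K] [Algebra F K] [FiniteDimensional F K]
      [Algebra.IsSeparable F K],
      ¬ Function.Surjective (algebraMap F K) → ∃ σ : K ≃ₐ[F] K, σ ≠ AlgEquiv.refl)
    {D : Type*} [DivisionRing D] [Algebra F D] (d : D) (hsep : IsSeparable F d)
    (hd : d ∉ (algebraMap F D).range) :
    ∃ p : F[X], minpoly F (aeval d p) = minpoly F d ∧ aeval d p ≠ d := by
  have hint : IsIntegral F d := hsep.isIntegral
  set f := minpoly F d with hf
  have hirr : Irreducible f := minpoly.irreducible hint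
  have : Fact (Irreducible f) := ⟨hirr⟩
  have hmonic : f.Monic := minpoly.monic hint
  have hdeg : 2 ≤ f.natDegree := (minpoly.two_le_natDegree_iff hint).mpr hd
  have : FiniteDimensional F (AdjoinRoot f) := hmonic.finite_adjoinRoot
  have : Algebra.IsSeparable F (AdjoinRoot f) := isSeparable_adjoinRoot hsep
  have hns : ¬ Function.Surjective (algebraMap F (AdjoinRoot f)) := by
    intro hs
    obtain ⟨c, hc⟩ := hs (AdjoinRoot.root f)
    have h0 : AdjoinRoot.mk f (X - C c) = 0 := by
      rw [map_sub, AdjoinRoot.mk_X, AdjoinRoot.mk_C, ← hc, AdjoinRoot.algebraMap_eq, sub_self]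
    have hdvd := AdjoinRoot.mk_eq_zero.mp h0
    have hle := natDegree_le_of_dvd hdvd (X_sub_C_ne_zero c)
    rw [natDegree_X_sub_C] at hle
    omega
  obtain ⟨σ, hσ⟩ := H2 (AdjoinRoot f) hns
  have hroot : σ (AdjoinRoot.root f) ≠ AdjoinRoot.root f := by
    intro h
    apply hσ
    have h3 : (σ : AdjoinRoot f →ₐ[F] AdjoinRoot f) = AlgHom.id F (AdjoinRoot f) :=
      AdjoinRoot.algHom_ext (by simpa using h)
    ext z
    exact DFunLike.congr_fun h3 z
  obtain ⟨p, hp⟩ := AdjoinRoot.mk_surjective (σ (AdjoinRoot.root f))
  have h1 : f ∣ f.comp p := by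
    rw [← AdjoinRoot.mk_eq_zero, ← AdjoinRoot.aeval_eq, aeval_comp, AdjoinRoot.aeval_eq, hp]
    have h4 : aeval ((σ : AdjoinRoot f →ₐ[F] AdjoinRoot f) (AdjoinRoot.root f)) f
        = (σ : AdjoinRoot f →ₐ[F] AdjoinRoot f) (aeval (AdjoinRoot.root f) f) :=
      aeval_algHom_apply _ _ _
    have h5 : aeval (AdjoinRoot.root f) f = 0 := by
      rw [AdjoinRoot.aeval_eq, AdjoinRoot.mk_self]
    rw [h5, map_zero] at h4
    exact h4
  have h2 : ¬ f ∣ p - X := by
    rw [← AdjoinRoot.mk_eq_mk, hp, AdjoinRoot.mk_X]
    exact hroot
  have hb1 : aeval d (f.comp p) = 0 := by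
    obtain ⟨q, hq⟩ := h1
    rw [hq, map_mul, hf, minpoly.aeval, zero_mul]
  have hb2 : aeval d p ≠ d := by
    intro h
    apply h2
    apply minpoly.dvd
    rw [map_sub, aeval_X, h, sub_self]
  have hmin : minpoly F (aeval d p) = minpoly F d := by
    symm
    apply minpoly.eq_of_irreducible_of_monic hirr _ hmonic
    rw [← aeval_comp]
    exact hb1
  exact ⟨p, hmin, hb2⟩

/-- Jacobson-Noether in the form used here: a division ring algebraic over its center `F` and
different from `F` has an element outside `F` that is separable over `F`. -/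
theorem exists_separable_not_mem_range {F D : Type*} [Field F] [DivisionRing D] [Algebra F D]
    [Algebra.IsAlgebraic F D] (hcenter : Subalgebra.center F D = ⊥)
    (hns : ¬ Function.Surjective (algebraMap F D)) :
    ∃ x : D, x ∉ (algebraMap F D).range ∧ IsSeparable F x := by
  have : Algebra.IsCentral F D := ⟨le_of_eq hcenter⟩
  have hneq : (⊥ : Subalgebra F D) ≠ ⊤ := by
    intro h
    apply hns
    intro x
    have hx : x ∈ (⊥ : Subalgebra F D) := by rw [h]; exact Algebra.mem_top
    exact Algebra.mem_bot.mp hx
  obtain ⟨x, hx, hsep⟩ := JacobsonNoether.exists_separable_and_not_isCentral' hneq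
  exact ⟨x, fun h => hx (Algebra.mem_bot.mpr h), hsep⟩

end Vale.Agent.Lib.P199
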